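import Crest.Agent.AsyLib.Basic
import Crest.Agent.AsyLib.Cof
import Crest.Prelude.Def_DaugavetL1

/-!
Lower bounds in subspaces of `L¹` whose unit ball is totally bounded in measure.
-/

set_option autoImplicit false

namespace Crest.Agent.S0167Lib

open MeasureTheory
open Crest.AnalysisR Crest.AnalysisR.L1Subspace Crest.Agent.AsyLib

variable {Ω : Type} [MeasurableSpace Ω]

/-- Absolute continuity of the integral of a fixed integrable function. -/
theorem lower_aux_abs_cont (P : Measure Ω) {f : Ω → ℝ}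
    (hf : Integrable f P) {κ : ℝ} (hκ : 0 < κ) :
    ∃ δ : ℝ, 0 < δ ∧ ∀ A : Set Ω, MeasurableSet A → P A ≤ ENNReal.ofReal δ →
      ∫ ω in A, |f ω| ∂P ≤ κ := by
  have hmem : MemLp f 1 P := memLp_one_iff_integrable.mpr hf
  obtain ⟨δ, hδ, h⟩ := hmem.eLpNorm_indicator_le le_rfl ENNReal.one_ne_top hκ
  refine ⟨δ, hδ, fun A hA hPA => ?_⟩
  have h1 := h A hA hPA
  have h2 : ∫ ω in A, |f ω| ∂P = ∫ ω, ‖A.indicator f ω‖ ∂P := by
    rw [← integral_indicator hA]
    apply integral_congr_ae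
    filter_upwards with ω
    by_cases hω : ω ∈ A <;> simp [hω]
  have h3 : ∫ ω, ‖A.indicator f ω‖ ∂P = (eLpNorm (A.indicator f) 1 P).toReal := by
    rw [eLpNorm_one_eq_lintegral_enorm]
    exact integral_norm_eq_lintegral_enorm (hf.indicator hA).aestronglyMeasurable
  rw [h2, h3]
  calc (eLpNorm (A.indicator f) 1 P).toReal ≤ (ENNReal.ofReal κ).toReal :=
        ENNReal.toReal_mono ENNReal.ofReal_ne_top h1
    _ = κ := ENNReal.toReal_ofReal hκ.le

theorem lower_aux_integrable_mul (P : Measure Ω) {σ : Ω → ℝ} (hσm : Measurable σ)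
    (hσ : ∀ ω, |σ ω| ≤ 1) {f : Ω → ℝ} (hf : Integrable f P) :
    Integrable (fun ω => σ ω * f ω) P := by
  refine Integrable.mono' hf.norm (hσm.aestronglyMeasurable.mul hf.aestronglyMeasurable)
    (Filter.Eventually.of_forall fun ω => ?_)
  rw [norm_mul, Real.norm_eq_abs, Real.norm_eq_abs]
  calc |σ ω| * |f ω| ≤ 1 * |f ω| := by gcongr; exact hσ ω
    _ = ‖f ω‖ := by rw [one_mul, Real.norm_eq_abs]

/-- The functional `u ↦ ∫ σ u` on `L¹(P)` for a measurable `σ` bounded by one. -/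
noncomputable def lowerAuxFun (P : Measure Ω) (σ : Ω → ℝ) (hσm : Measurable σ)
    (hσ : ∀ ω, |σ ω| ≤ 1) : Lp ℝ 1 P →L[ℝ] ℝ :=
  LinearMap.mkContinuous
    { toFun := fun u => ∫ ω, σ ω * u ω ∂P
      map_add' := by
        intro u v
        have hu := lower_aux_integrable_mul P hσm hσ (L1.integrable_coeFn u)
        have hv := lower_aux_integrable_mul P hσm hσ (L1.integrable_coeFn v)
        rw [← integral_add hu hv]
        apply integral_congr_ae
        filter_upwards [Lp.coeFn_add u v] with ω hω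
        rw [hω, Pi.add_apply, mul_add]
      map_smul' := by
        intro c u
        simp only [RingHom.id_apply, smul_eq_mul]
        rw [← integral_const_mul]
        apply integral_congr_ae
        filter_upwards [Lp.coeFn_smul c u] with ω hω
        rw [hω, Pi.smul_apply, smul_eq_mul]
        ring }
    1 (by
      intro u
      have hu := lower_aux_integrable_mul P hσm hσ (L1.integrable_coeFn u)
      simp only [LinearMap.coe_mk, AddHom.coe_mk, one_mul]
      calc ‖∫ ω, σ ω * u ω ∂P‖ ≤ ∫ ω, ‖σ ω * u ω‖ ∂P := norm_integral_le_integral_norm _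
        _ ≤ ∫ ω, ‖u ω‖ ∂P := by
            apply integral_mono hu.norm (L1.integrable_coeFn u).norm
            intro ω
            simp only [norm_mul, Real.norm_eq_abs]
            calc |σ ω| * |u ω| ≤ 1 * |u ω| := by gcongr; exact hσ ω
              _ = |u ω| := one_mul _
        _ = ‖u‖ := (L1.norm_eq_integral_norm u).symm)

theorem lowerAuxFun_apply (P : Measure Ω) (σ : Ω → ℝ) (hσm : Measurable σ)
    (hσ : ∀ ω, |σ ω| ≤ 1) (u : Lp ℝ 1 P) :
    lowerAuxFun P σ hσm hσ u = ∫ ω, σ ω * u ω ∂P := rfl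

/-- If `∫ σ y = 0` for the sign `σ` of `g` and `y` is `a`-close to `g` off `A`, then at least
(almost) half of the mass of `y` sits on `A`. -/
theorem lower_aux_mass (P : Measure Ω) [IsProbabilityMeasure P] {yf gf σ : Ω → ℝ}
    (hy : Integrable yf P) (hσm : Measurable σ) (hσ : ∀ ω, |σ ω| ≤ 1)
    (hσg : ∀ ω, σ ω * gf ω = |gf ω|) {a : ℝ} (ha : 0 ≤ a) (A : Set Ω) (hA : MeasurableSet A)
    (hAc : ∀ ω, ω ∉ A → |yf ω - gf ω| ≤ a) (hzero : ∫ ω, σ ω * yf ω ∂P = 0) :
    (∫ ω, |yf ω| ∂P) / 2 - a ≤ ∫ ω in A, |yf ω| ∂P := by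
  have hyabs : Integrable (fun ω => |yf ω|) P := hy.abs
  have hind : Integrable (A.indicator fun ω => |yf ω|) P := hyabs.indicator hA
  have hpt : ∀ ω, |yf ω| - 2 * a - 2 * A.indicator (fun ω => |yf ω|) ω ≤ σ ω * yf ω := by
    intro ω
    have hσy : -|yf ω| ≤ σ ω * yf ω := by
      have : |σ ω * yf ω| ≤ |yf ω| := by
        rw [abs_mul]
        calc |σ ω| * |yf ω| ≤ 1 * |yf ω| := by gcongr; exact hσ ω
          _ = |yf ω| := one_mul _
      linarith [neg_abs_le (σ ω * yf ω)]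
    by_cases hω : ω ∈ A
    · rw [Set.indicator_of_mem hω]
      linarith [abs_nonneg (yf ω)]
    · rw [Set.indicator_of_notMem hω]
      have h1 := hAc ω hω
      have h2 : σ ω * yf ω = |gf ω| + σ ω * (yf ω - gf ω) := by
        rw [mul_sub, hσg ω]; ring
      have h3 : -|yf ω - gf ω| ≤ σ ω * (yf ω - gf ω) := by
        have : |σ ω * (yf ω - gf ω)| ≤ |yf ω - gf ω| := by
          rw [abs_mul]
          calc |σ ω| * |yf ω - gf ω| ≤ 1 * |yf ω - gf ω| := by gcongr; exact hσ ω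
            _ = |yf ω - gf ω| := one_mul _
        linarith [neg_abs_le (σ ω * (yf ω - gf ω))]
      have h4 : |yf ω| ≤ |gf ω| + |yf ω - gf ω| := by
        have := abs_add_le (gf ω) (yf ω - gf ω)
        rwa [add_sub_cancel] at this
      linarith
  have hlhs : Integrable (fun ω => |yf ω| - 2 * a - 2 * A.indicator (fun ω => |yf ω|) ω) P :=
    (hyabs.sub (integrable_const _)).sub (hind.const_mul 2)
  have hint : ∫ ω, (|yf ω| - 2 * a - 2 * A.indicator (fun ω => |yf ω|) ω) ∂P =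
      ∫ ω, |yf ω| ∂P - 2 * a - 2 * ∫ ω in A, |yf ω| ∂P := by
    have e1 : ∫ ω, (|yf ω| - 2 * a - 2 * A.indicator (fun ω => |yf ω|) ω) ∂P =
        ∫ ω, (|yf ω| - 2 * a) ∂P - ∫ ω, 2 * A.indicator (fun ω => |yf ω|) ω ∂P :=
      integral_sub (hyabs.sub (integrable_const _)) (hind.const_mul 2)
    have e2 : ∫ ω, (|yf ω| - 2 * a) ∂P = ∫ ω, |yf ω| ∂P - 2 * a := by
      have := integral_sub hyabs (integrable_const (μ := P) (2 * a))
      rw [this]
      simp
    have e3 : ∫ ω, 2 * A.indicator (fun ω => |yf ω|) ω ∂P = 2 * ∫ ω in A, |yf ω| ∂P := by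
      rw [integral_const_mul, integral_indicator hA]
    rw [e1, e2, e3]
  have hle : ∫ ω, (|yf ω| - 2 * a - 2 * A.indicator (fun ω => |yf ω|) ω) ∂P ≤
      ∫ ω, σ ω * yf ω ∂P := by
    exact integral_mono hlhs (lower_aux_integrable_mul P hσm hσ hy) hpt
  rw [hint, hzero] at hle
  linarith

/-- Lower bound for `‖x + t y‖₁ + ‖x - t y‖₁` by the masses of `x` off `A` and of `y` on `A`. -/
theorem lower_aux_norm (P : Measure Ω) {xf yf : Ω → ℝ} (hx : Integrable xf P)
    (hy : Integrable yf P) (t : ℝ) (A : Set Ω) (hA : MeasurableSet A) :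
    2 * (∫ ω, |xf ω| ∂P - ∫ ω in A, |xf ω| ∂P + |t| * ∫ ω in A, |yf ω| ∂P) ≤
      ∫ ω, |xf ω + t * yf ω| ∂P + ∫ ω, |xf ω - t * yf ω| ∂P := by
  have hxabs : Integrable (fun ω => |xf ω|) P := hx.abs
  have hyabs : Integrable (fun ω => |yf ω|) P := hy.abs
  have hxi : Integrable (A.indicator fun ω => |xf ω|) P := hxabs.indicator hA
  have hyi : Integrable (A.indicator fun ω => |yf ω|) P := hyabs.indicator hA
  have h1 : Integrable (fun ω => |xf ω + t * yf ω|) P := (hx.add (hy.const_mul t)).abs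
  have h2 : Integrable (fun ω => |xf ω - t * yf ω|) P := (hx.sub (hy.const_mul t)).abs
  have hpt : ∀ ω, 2 * (|xf ω| - A.indicator (fun ω => |xf ω|) ω +
      |t| * A.indicator (fun ω => |yf ω|) ω) ≤ |xf ω + t * yf ω| + |xf ω - t * yf ω| := by
    intro ω
    by_cases hω : ω ∈ A
    · rw [Set.indicator_of_mem hω, Set.indicator_of_mem hω]
      have : |(xf ω + t * yf ω) - (xf ω - t * yf ω)| = 2 * (|t| * |yf ω|) := by
        rw [show (xf ω + t * yf ω) - (xf ω - t * yf ω) = 2 * (t * yf ω) by ring, abs_mul,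
          abs_mul]
        norm_num
      have h3 := abs_sub (xf ω + t * yf ω) (xf ω - t * yf ω)
      linarith
    · rw [Set.indicator_of_notMem hω, Set.indicator_of_notMem hω]
      have : |(xf ω + t * yf ω) + (xf ω - t * yf ω)| = 2 * |xf ω| := by
        rw [show (xf ω + t * yf ω) + (xf ω - t * yf ω) = 2 * xf ω by ring, abs_mul]
        norm_num
      have h3 := abs_add_le (xf ω + t * yf ω) (xf ω - t * yf ω)
      linarith
  have hL : Integrable (fun ω => 2 * (|xf ω| - A.indicator (fun ω => |xf ω|) ω +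
      |t| * A.indicator (fun ω => |yf ω|) ω)) P :=
    ((hxabs.sub hxi).add (hyi.const_mul |t|)).const_mul 2
  have hint : ∫ ω, 2 * (|xf ω| - A.indicator (fun ω => |xf ω|) ω +
      |t| * A.indicator (fun ω => |yf ω|) ω) ∂P =
      2 * (∫ ω, |xf ω| ∂P - ∫ ω in A, |xf ω| ∂P + |t| * ∫ ω in A, |yf ω| ∂P) := by
    have e1 : ∫ ω, (|xf ω| - A.indicator (fun ω => |xf ω|) ω +
        |t| * A.indicator (fun ω => |yf ω|) ω) ∂P =
        ∫ ω, (|xf ω| - A.indicator (fun ω => |xf ω|) ω) ∂P +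
          ∫ ω, |t| * A.indicator (fun ω => |yf ω|) ω ∂P :=
      integral_add (hxabs.sub hxi) (hyi.const_mul |t|)
    have e2 : ∫ ω, (|xf ω| - A.indicator (fun ω => |xf ω|) ω) ∂P =
        ∫ ω, |xf ω| ∂P - ∫ ω, A.indicator (fun ω => |xf ω|) ω ∂P :=
      integral_sub hxabs hxi
    rw [integral_const_mul, e1, e2, integral_const_mul, integral_indicator hA,
      integral_indicator hA]
  rw [← hint, ← integral_add h1 h2]
  exact integral_mono hL (h1.add h2) hpt

/-- Midpoint lower bound `t/2`: if the unit ball of `E ⊆ L¹(P)` is totally bounded in measure,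
then for every unit `x ∈ E`, `t > 0` and `η > 0` there is a closed finite-codimensional `F ⊆ E`
with `(‖x + t y‖ + ‖x - t y‖)/2 ≥ 1 + t/2 - η` for all unit `y ∈ F`. -/
theorem L1_midpoint_lower {Ω : Type} [MeasurableSpace Ω] (P : Measure Ω) [IsProbabilityMeasure P]
    (E : Submodule ℝ (Lp ℝ 1 P)) (htb : UnitBallTotallyBoundedInMeasure P E)
    (x : E) (hx : ‖x‖ = 1) {t η : ℝ} (ht : 0 < t) (hη : 0 < η) :
    ∃ F : Set E, IsCofT F ∧ ∀ y ∈ F, ‖y‖ = 1 →
      1 + t / 2 - η ≤ (‖x + t • y‖ + ‖x - t • y‖) / 2 := by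
  -- the representative of `x`
  set xf : Ω → ℝ := ((x : Lp ℝ 1 P) : Ω → ℝ) with hxf
  have hxint : Integrable xf P := L1.integrable_coeFn _
  have hxnorm : ∫ ω, |xf ω| ∂P = 1 := by
    have h1 : ‖(x : Lp ℝ 1 P)‖ = 1 := hx
    rw [L1.norm_eq_integral_norm] at h1
    exact h1
  obtain ⟨δ, hδ, hAC⟩ := lower_aux_abs_cont P hxint (show 0 < η / 4 by positivity)
  set ε : ℝ := min δ (η / (4 * t)) with hε
  have hεpos : 0 < ε := lt_min hδ (by positivity)
  have hεt : t * ε ≤ η / 4 := by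
    have h1 : ε ≤ η / (4 * t) := min_le_right _ _
    calc t * ε ≤ t * (η / (4 * t)) := mul_le_mul_of_nonneg_left h1 ht.le
      _ = η / 4 := by field_simp
  obtain ⟨s, hs, hnet⟩ := htb ε hεpos
  -- sign functions of the net elements
  let σ : Lp ℝ 1 P → Ω → ℝ := fun g ω => if 0 ≤ (g : Ω → ℝ) ω then 1 else -1
  have hσm : ∀ g, Measurable (σ g) := fun g =>
    Measurable.ite (measurableSet_le measurable_const (Lp.stronglyMeasurable g).measurable)
      measurable_const measurable_const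
  have hσ1 : ∀ g ω, |σ g ω| ≤ 1 := by
    intro g ω
    simp only [σ]
    split_ifs <;> simp
  have hσg : ∀ g ω, σ g ω * (g : Ω → ℝ) ω = |(g : Ω → ℝ) ω| := by
    intro g ω
    simp only [σ]
    split_ifs with h
    · rw [one_mul, abs_of_nonneg h]
    · rw [neg_one_mul, abs_of_neg (not_le.mp h)]
  -- the functionals
  let φ : s → E →L[ℝ] ℝ := fun g =>
    (lowerAuxFun P (σ g) (hσm g) (hσ1 g)).comp E.subtypeL
  refine ⟨{y : E | ∀ g : s, φ g y = 0}, isCofT_ker_pi φ, ?_⟩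
  intro y hy hy1
  set yf : Ω → ℝ := ((y : Lp ℝ 1 P) : Ω → ℝ) with hyf
  have hyint : Integrable yf P := L1.integrable_coeFn _
  have hynorm : ∫ ω, |yf ω| ∂P = 1 := by
    have h1 : ‖(y : Lp ℝ 1 P)‖ = 1 := hy1
    rw [L1.norm_eq_integral_norm] at h1
    exact h1
  obtain ⟨g, hgs, hdist⟩ := hnet (y : Lp ℝ 1 P) y.2 (le_of_eq hy1)
  -- unpack the distance in measure
  have hne : {a : ℝ | 0 < a ∧
      P {z | a < |((y : Lp ℝ 1 P) : Ω → ℝ) z - (g : Ω → ℝ) z|} < ENNReal.ofReal a}.Nonempty := by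
    refine ⟨2, by norm_num, ?_⟩
    calc P {z | (2 : ℝ) < |((y : Lp ℝ 1 P) : Ω → ℝ) z - (g : Ω → ℝ) z|} ≤ 1 := prob_le_one
      _ < ENNReal.ofReal 2 := by
          rw [show (1 : ENNReal) = ENNReal.ofReal 1 by simp]
          exact (ENNReal.ofReal_lt_ofReal_iff (by norm_num)).mpr (by norm_num)
  obtain ⟨a, ⟨ha0, haP⟩, haε⟩ := exists_lt_of_csInf_lt hne hdist
  set A : Set Ω := {z | a < |yf z - (g : Ω → ℝ) z|} with hA
  have hAm : MeasurableSet A :=
    measurableSet_lt measurable_const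
      (((Lp.stronglyMeasurable (y : Lp ℝ 1 P)).measurable.sub
        (Lp.stronglyMeasurable g).measurable).abs)
  have hAc : ∀ ω, ω ∉ A → |yf ω - (g : Ω → ℝ) ω| ≤ a := fun ω hω => not_lt.mp hω
  have hzero : ∫ ω, σ g ω * yf ω ∂P = 0 := hy ⟨g, hgs⟩
  have hmass := lower_aux_mass P hyint (hσm g) (hσ1 g) (hσg g) ha0.le A hAm hAc hzero
  have hPA : P A ≤ ENNReal.ofReal δ :=
    haP.le.trans (ENNReal.ofReal_le_ofReal (haε.le.trans (min_le_left _ _)))
  have hxA := hAC A hAm hPA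
  have hnorm := lower_aux_norm P hxint hyint t A hAm
  -- the two norms as integrals
  have hplus : ‖x + t • y‖ = ∫ ω, |xf ω + t * yf ω| ∂P := by
    have h1 : ‖x + t • y‖ = ‖((x : Lp ℝ 1 P) + t • (y : Lp ℝ 1 P))‖ := rfl
    rw [h1, L1.norm_eq_integral_norm]
    apply integral_congr_ae
    filter_upwards [Lp.coeFn_add (x : Lp ℝ 1 P) (t • (y : Lp ℝ 1 P)),
      Lp.coeFn_smul t (y : Lp ℝ 1 P)] with ω h1 h2
    rw [h1, Pi.add_apply, h2, Pi.smul_apply, smul_eq_mul, Real.norm_eq_abs]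
  have hminus : ‖x - t • y‖ = ∫ ω, |xf ω - t * yf ω| ∂P := by
    have h1 : ‖x - t • y‖ = ‖((x : Lp ℝ 1 P) - t • (y : Lp ℝ 1 P))‖ := rfl
    rw [h1, L1.norm_eq_integral_norm]
    apply integral_congr_ae
    filter_upwards [Lp.coeFn_sub (x : Lp ℝ 1 P) (t • (y : Lp ℝ 1 P)),
      Lp.coeFn_smul t (y : Lp ℝ 1 P)] with ω h1 h2
    rw [h1, Pi.sub_apply, h2, Pi.smul_apply, smul_eq_mul, Real.norm_eq_abs]
  rw [hplus, hminus]
  rw [abs_of_pos ht, hxnorm] at hnorm
  rw [hynorm] at hmass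
  have h5 : t * (1 / 2 - a) ≤ t * ∫ ω in A, |yf ω| ∂P :=
    mul_le_mul_of_nonneg_left hmass ht.le
  have h6 : t * a ≤ t * ε := mul_le_mul_of_nonneg_left haε.le ht.le
  linarith

end Crest.Agent.S0167Lib
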