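import Crest.Agent.S0167Lib.Daugavet
import Crest.Agent.AsyLib.NoAUC
import Crest.Agent.AsyLib.Cof

/-!
Consequences of the far-point lemma: the upper bounds for the one-sided and midpoint quantities and
the absence of asymptotically uniformly convex renormings in spaces with the Daugavet property.
-/

set_option autoImplicit false

namespace Crest.Agent.S0167Lib

open Crest.AnalysisR Crest.AnalysisR.L1Subspace Crest.Agent.AsyLib

variable {V : Type*} [NormedAddCommGroup V] [NormedSpace ℝ V]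

/-- A unit direction in `F` along which `x` hardly grows. -/
theorem daugavet_direction (hD : HasDaugavetProperty V) (x : V) (hx : ‖x‖ = 1) {F : Set V}
    (hF : IsCofT F) {t η : ℝ} (ht : 0 < t) (hη : 0 < η) :
    ∃ y ∈ F, ‖y‖ = 1 ∧ ‖x + t • y‖ ≤ 1 + max 0 (t - 2) + η := by
  obtain ⟨δ, hδ⟩ : ∃ δ : ℝ, δ = min (1 / 2) (η / (2 * t)) := ⟨_, rfl⟩
  have hδpos : 0 < δ := by
    rw [hδ]; exact lt_min (by norm_num) (div_pos hη (by linarith))
  have hδ1 : δ ≤ 1 / 2 := by rw [hδ]; exact min_le_left _ _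
  have hδ2 : 2 * t * δ ≤ η := by
    have h1 : δ ≤ η / (2 * t) := by rw [hδ]; exact min_le_right _ _
    rw [le_div_iff₀ (by linarith)] at h1
    linarith
  obtain ⟨z, y', hz, hy'F, hclose, hfar⟩ := daugavet_far hD x hx hF hδpos
  -- size of `y'`
  have hzx : ‖z - x‖ ≤ 2 := by
    calc ‖z - x‖ ≤ ‖z‖ + ‖x‖ := norm_sub_le _ _
      _ ≤ 2 := by linarith
  have hy'lo : 2 - 2 * δ ≤ ‖y'‖ := by
    have h1 : ‖z - x‖ ≤ ‖z - x - y'‖ + ‖y'‖ := by
      have h2 : z - x = (z - x - y') + y' := by abel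
      calc ‖z - x‖ = ‖(z - x - y') + y'‖ := by rw [← h2]
        _ ≤ ‖z - x - y'‖ + ‖y'‖ := norm_add_le _ _
    linarith
  have hy'hi : ‖y'‖ ≤ 2 + δ := by
    have h1 : ‖y'‖ ≤ ‖z - x‖ + ‖z - x - y'‖ := by
      have h2 : y' = (z - x) - (z - x - y') := by abel
      calc ‖y'‖ = ‖(z - x) - (z - x - y')‖ := by rw [← h2]
        _ ≤ ‖z - x‖ + ‖z - x - y'‖ := norm_sub_le _ _
    linarith
  have hy'pos : 0 < ‖y'‖ := by linarith
  obtain ⟨r, hr⟩ : ∃ r : ℝ, r = ‖y'‖ := ⟨_, rfl⟩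
  rw [← hr] at hy'lo hy'hi hy'pos
  refine ⟨r⁻¹ • y', hF.smul_mem _ hy'F, ?_, ?_⟩
  · rw [norm_smul, norm_inv, Real.norm_eq_abs, abs_of_pos hy'pos, hr, inv_mul_cancel₀]
    rw [← hr]; exact hy'pos.ne'
  · -- `x + t • ŷ` with `ŷ = (z - x)/2`
    have hmain : ‖x + (t / 2) • (z - x)‖ ≤ 1 + max 0 (t - 2) := by
      have h1 : x + (t / 2) • (z - x) = (1 - t / 2) • x + (t / 2) • z := by
        rw [smul_sub, sub_smul, one_smul]; abel
      rw [h1]
      calc ‖(1 - t / 2) • x + (t / 2) • z‖ ≤ ‖(1 - t / 2) • x‖ + ‖(t / 2) • z‖ := norm_add_le _ _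
        _ ≤ |1 - t / 2| + t / 2 := by
          rw [norm_smul, norm_smul, hx, mul_one, Real.norm_eq_abs, Real.norm_eq_abs,
            abs_of_pos (by linarith : 0 < t / 2)]
          have : t / 2 * ‖z‖ ≤ t / 2 * 1 := mul_le_mul_of_nonneg_left hz (by linarith)
          linarith
        _ ≤ 1 + max 0 (t - 2) := by
          rcases le_total t 2 with h2 | h2
          · rw [abs_of_nonneg (by linarith), max_eq_left (by linarith)]; linarith
          · rw [abs_of_nonpos (by linarith), max_eq_right (by linarith)]; linarith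
    -- difference of the two directions
    have hdiff : ‖r⁻¹ • y' - (1 / 2 : ℝ) • (z - x)‖ ≤ 2 * δ := by
      have h1 : r⁻¹ • y' - (1 / 2 : ℝ) • (z - x)
          = (r⁻¹ - 1 / 2) • y' - (1 / 2 : ℝ) • (z - x - y') := by
        rw [sub_smul, smul_sub (1 / 2 : ℝ) (z - x) y']; abel
      rw [h1]
      calc ‖(r⁻¹ - 1 / 2) • y' - (1 / 2 : ℝ) • (z - x - y')‖
          ≤ ‖(r⁻¹ - 1 / 2) • y'‖ + ‖(1 / 2 : ℝ) • (z - x - y')‖ := norm_sub_le _ _
        _ = |r⁻¹ - 1 / 2| * r + 1 / 2 * ‖z - x - y'‖ := by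
          rw [norm_smul, norm_smul, Real.norm_eq_abs, Real.norm_eq_abs, ← hr,
            abs_of_pos (by norm_num : (0 : ℝ) < 1 / 2)]
        _ ≤ δ + 1 / 2 * δ := by
          have h2 : |r⁻¹ - 1 / 2| * r = |1 - r / 2| := by
            rw [← abs_of_pos hy'pos, ← abs_mul, abs_of_pos hy'pos]
            congr 1
            field_simp
          rw [h2]
          have h3 : |1 - r / 2| ≤ δ := by
            rw [abs_le]; constructor <;> linarith
          linarith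
        _ ≤ 2 * δ := by linarith
    have h4 : x + t • r⁻¹ • y' = (x + (t / 2) • (z - x))
        + t • (r⁻¹ • y' - (1 / 2 : ℝ) • (z - x)) := by
      have e0 : t * (1 / 2) = t / 2 := by ring
      have e1 : t • (r⁻¹ • y' - (1 / 2 : ℝ) • (z - x))
          = t • r⁻¹ • y' - (t / 2) • (z - x) := by
        rw [smul_sub, smul_smul t (1 / 2 : ℝ), e0]
      rw [e1]; abel
    rw [h4]
    calc ‖(x + (t / 2) • (z - x)) + t • (r⁻¹ • y' - (1 / 2 : ℝ) • (z - x))‖
        ≤ ‖x + (t / 2) • (z - x)‖ + ‖t • (r⁻¹ • y' - (1 / 2 : ℝ) • (z - x))‖ := norm_add_le _ _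
      _ ≤ (1 + max 0 (t - 2)) + t * (2 * δ) := by
        rw [norm_smul, Real.norm_eq_abs, abs_of_pos ht]
        have : t * ‖r⁻¹ • y' - (1 / 2 : ℝ) • (z - x)‖ ≤ t * (2 * δ) :=
          mul_le_mul_of_nonneg_left hdiff ht.le
        linarith
      _ ≤ 1 + max 0 (t - 2) + η := by linarith

/-- The same direction controls the midpoint average. -/
theorem daugavet_direction_avg (hD : HasDaugavetProperty V) (x : V) (hx : ‖x‖ = 1) {F : Set V}
    (hF : IsCofT F) {t η : ℝ} (ht : 0 < t) (hη : 0 < η) :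
    ∃ y ∈ F, ‖y‖ = 1 ∧ (‖x + t • y‖ + ‖x - t • y‖) / 2 - 1 ≤ max (t / 2) (t - 1) + η := by
  obtain ⟨y, hyF, hy1, hy2⟩ := daugavet_direction hD x hx hF ht hη
  refine ⟨y, hyF, hy1, ?_⟩
  have h1 : ‖x - t • y‖ ≤ 1 + t := by
    calc ‖x - t • y‖ ≤ ‖x‖ + ‖t • y‖ := norm_sub_le _ _
      _ = 1 + t := by rw [norm_smul, hx, hy1, Real.norm_eq_abs, abs_of_pos ht, mul_one]
  rcases le_total t 2 with h2 | h2
  · rw [max_eq_left (by linarith)] at hy2
    have h3 : t / 2 ≤ max (t / 2) (t - 1) := le_max_left _ _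
    linarith
  · rw [max_eq_right (by linarith)] at hy2
    have h3 : t - 1 ≤ max (t / 2) (t - 1) := le_max_right _ _
    linarith

/-- No equivalent norm on a space with the Daugavet property is asymptotically uniformly convex. -/
theorem daugavet_noAUC (hD : HasDaugavetProperty V) (N : V → ℝ)
    (hN : (∀ x y : V, N (x + y) ≤ N x + N y) ∧ (∀ (a : ℝ) (x : V), N (a • x) = abs a * N x) ∧
      ∃ a b : ℝ, 0 < a ∧ ∀ x : V, a * ‖x‖ ≤ N x ∧ N x ≤ b * ‖x‖)
    (hAUC : ∀ t : ℝ, 0 < t → ∃ c : ℝ, 0 < c ∧ ∀ x : V, N x = 1 → ∃ F : Set V, IsCofT F ∧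
      ∀ y ∈ F, N y = 1 → c ≤ N (x + t • y) - 1) : False := by
  refine noAUC_of_steps 1 (1 / 2) (by norm_num) {x : V | ‖x‖ = 1} ?_ ?_ ?_ N hN hAUC
  · obtain ⟨x, hx⟩ := daugavet_aux_exists_unit hD
    exact ⟨x, hx, by rw [hx]; norm_num⟩
  · intro x hx
    exact le_of_eq hx
  · intro x hx F hF ε hε
    have hx1 : ‖x‖ = 1 := hx
    obtain ⟨F₀, hF₀, hnorming⟩ := exists_isCofT_norming x
    obtain ⟨η, hη⟩ : ∃ η : ℝ, η = min ε (1 / 4) := ⟨_, rfl⟩
    have hηpos : 0 < η := by rw [hη]; exact lt_min hε (by norm_num)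
    have hη1 : η ≤ ε := by rw [hη]; exact min_le_left _ _
    have hη2 : η ≤ 1 / 4 := by rw [hη]; exact min_le_right _ _
    obtain ⟨y, hyF, hy1, hy2⟩ :=
      daugavet_direction hD x hx1 (hF.inter hF₀) (t := 1) (η := η) one_pos hηpos
    rw [one_smul, max_eq_left (by norm_num)] at hy2
    have hlow : 1 ≤ ‖x + y‖ := by
      have := hnorming y hyF.2
      rwa [hx1] at this
    obtain ⟨r, hr⟩ : ∃ r : ℝ, r = ‖x + y‖ := ⟨_, rfl⟩
    rw [← hr] at hlow hy2
    have hrpos : 0 < r := by linarith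
    -- the increment
    have hinc : ‖r⁻¹ • (x + y) - x - y‖ = r - 1 := by
      have h1 : r⁻¹ • (x + y) - x - y = (r⁻¹ - 1) • (x + y) := by
        rw [sub_smul, one_smul]; abel
      rw [h1, norm_smul, ← hr, Real.norm_eq_abs]
      have h2 : |r⁻¹ - 1| * r = |1 - r| := by
        rw [← abs_of_pos hrpos, ← abs_mul, abs_of_pos hrpos]
        congr 1
        field_simp
      rw [h2, abs_of_nonpos (by linarith)]
      ring
    refine ⟨r⁻¹ • (x + y) - x, y, hyF.1, ?_, ?_, ?_⟩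
    · rw [hinc]; linarith
    · have h3 : ‖y‖ ≤ ‖r⁻¹ • (x + y) - x‖ + ‖r⁻¹ • (x + y) - x - y‖ := by
        have h4 : y = (r⁻¹ • (x + y) - x) - (r⁻¹ • (x + y) - x - y) := by abel
        calc ‖y‖ = ‖(r⁻¹ • (x + y) - x) - (r⁻¹ • (x + y) - x - y)‖ := by rw [← h4]
          _ ≤ _ := norm_sub_le _ _
      rw [hinc, hy1] at h3
      linarith
    · have h5 : x + (r⁻¹ • (x + y) - x) = r⁻¹ • (x + y) := by abel
      rw [h5]
      show ‖r⁻¹ • (x + y)‖ = 1
      rw [norm_smul, norm_inv, Real.norm_eq_abs, abs_of_pos hrpos, ← hr, inv_mul_cancel₀ hrpos.ne']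

end Crest.Agent.S0167Lib
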