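import Crest.Agent.AsyLib.Basic
import Crest.Prelude.Def_DaugavetL1

/-!
Auxiliary lemmas for `S0167Lib/Daugavet.lean`: the slice lemma (rank-one Daugavet property) and the
far-point lemma for a continuous linear map into a Hilbert space (approximately farthest points,
separation, successive choice along a convex combination).
-/

set_option autoImplicit false

namespace Crest.Agent.S0167Lib

open Crest.AnalysisR Crest.AnalysisR.L1Subspace Crest.Agent.AsyLib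

variable {V : Type*} [NormedAddCommGroup V] [NormedSpace ℝ V]

/-- A space with the Daugavet property is nontrivial. -/
theorem daugavet_aux_exists_unit (hD : HasDaugavetProperty V) : ∃ x : V, ‖x‖ = 1 := by
  by_contra h
  have h0 : ∀ v : V, v = 0 := by
    intro v
    by_contra hv
    exact h ⟨(‖v‖)⁻¹ • v,
      by rw [norm_smul, norm_inv, norm_norm, inv_mul_cancel₀ (norm_ne_zero_iff.mpr hv)]⟩
  have h1 := hD 0 0
  have hid : (ContinuousLinearMap.id ℝ V + (0 : V →L[ℝ] ℝ).smulRight (0 : V)) = 0 := by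
    ext v
    simp [h0 v]
  rw [hid] at h1
  simp at h1

/-- Slice lemma, normalised form: for a unit vector `x`, a functional `φ` and `ε > 0` there is `u`
in the unit ball with `φ u > ‖φ‖ - ε` and `‖x + u‖ > 2 - ε`. -/
theorem daugavet_aux_slice (hD : HasDaugavetProperty V) (φ : V →L[ℝ] ℝ) (x : V) (hx : ‖x‖ = 1)
    {ε : ℝ} (hε : 0 < ε) : ∃ u : V, ‖u‖ ≤ 1 ∧ ‖φ‖ - ε < φ u ∧ 2 - ε < ‖x + u‖ := by
  by_cases hφ : φ = 0
  · refine ⟨x, hx.le, ?_, ?_⟩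
    · simp [hφ, hε]
    · have h2 : x + x = (2 : ℝ) • x := (two_smul ℝ x).symm
      rw [h2, norm_smul, hx]
      norm_num
      exact hε
  · have hc : 0 < ‖φ‖ := norm_pos_iff.mpr hφ
    obtain ⟨c, hcdef⟩ : ∃ c : ℝ, c = ‖φ‖ := ⟨_, rfl⟩
    rw [← hcdef] at hc ⊢
    obtain ⟨ψ, hψ⟩ : ∃ ψ : V →L[ℝ] ℝ, ψ = c⁻¹ • φ := ⟨_, rfl⟩
    have hψn : ‖ψ‖ = 1 := by
      rw [hψ, norm_smul, norm_inv, Real.norm_eq_abs, abs_of_pos hc, ← hcdef,
        inv_mul_cancel₀ hc.ne']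
    have hT : ‖ψ.smulRight x‖ = 1 := by
      rw [ContinuousLinearMap.norm_smulRight_apply, hψn, hx, one_mul]
    have hD' := hD ψ x
    rw [hT] at hD'
    obtain ⟨ε', hε'⟩ : ∃ ε' : ℝ, ε' = min (ε / 2) (ε / c) := ⟨_, rfl⟩
    have hε'pos : 0 < ε' := by rw [hε']; exact lt_min (half_pos hε) (div_pos hε hc)
    have hε'1 : ε' ≤ ε / 2 := by rw [hε']; exact min_le_left _ _
    have hε'2 : ε' ≤ ε / c := by rw [hε']; exact min_le_right _ _
    have hlt : 2 - ε' < ‖ContinuousLinearMap.id ℝ V + ψ.smulRight x‖ := by rw [hD']; linarith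
    obtain ⟨u, hu1, hu2⟩ := ContinuousLinearMap.exists_lt_apply_of_lt_opNorm _ hlt
    have happ : ∀ w : V, (ContinuousLinearMap.id ℝ V + ψ.smulRight x) w = w + ψ w • x := by
      intro w; simp
    rw [happ] at hu2
    obtain ⟨w, hw1, hw0, hw2⟩ : ∃ w : V, ‖w‖ < 1 ∧ 0 ≤ ψ w ∧ 2 - ε' < ‖w + ψ w • x‖ := by
      by_cases hs : 0 ≤ ψ u
      · exact ⟨u, hu1, hs, hu2⟩
      · refine ⟨-u, by rwa [norm_neg], by rw [map_neg]; linarith [not_le.mp hs], ?_⟩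
        have h3 : -u + ψ (-u) • x = -(u + ψ u • x) := by rw [map_neg, neg_smul, neg_add]
        rw [h3, norm_neg]; exact hu2
    have hle : ‖w + ψ w • x‖ ≤ ‖w‖ + ψ w := by
      calc ‖w + ψ w • x‖ ≤ ‖w‖ + ‖ψ w • x‖ := norm_add_le _ _
        _ = ‖w‖ + ψ w := by rw [norm_smul, hx, mul_one, Real.norm_eq_abs, abs_of_nonneg hw0]
    have hψw : 1 - ε' < ψ w := by linarith
    have hψw1 : ψ w ≤ 1 := by
      have h4 := ψ.le_opNorm w
      rw [hψn, one_mul, Real.norm_eq_abs] at h4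
      linarith [le_abs_self (ψ w)]
    refine ⟨w, hw1.le, ?_, ?_⟩
    · have hφw : φ w = c * ψ w := by
        rw [hψ]
        change φ w = c * (c⁻¹ * φ w)
        field_simp
      rw [hφw]
      have h1 : c * ε' ≤ ε := by
        calc c * ε' ≤ c * (ε / c) := mul_le_mul_of_nonneg_left hε'2 hc.le
          _ = ε := by field_simp
      nlinarith
    · have h3 : ‖w + ψ w • x‖ ≤ ‖x + w‖ + ‖(1 - ψ w) • x‖ := by
        have h5 : w + ψ w • x = (x + w) - (1 - ψ w) • x := by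
          rw [sub_smul, one_smul]; abel
        rw [h5]; exact norm_sub_le _ _
      rw [norm_smul, hx, mul_one, Real.norm_eq_abs, abs_of_nonneg (by linarith)] at h3
      linarith

/-- The set of `α`-approximately farthest points of the image of the unit ball under `Φ`. -/
def farSet {H : Type*} [NormedAddCommGroup H] [InnerProductSpace ℝ H] (Φ : V →L[ℝ] H) (α : ℝ) :
    Set H :=
  {p | p ∈ Φ '' Metric.closedBall (0 : V) 1 ∧
    ∃ a : H, ∀ k ∈ Φ '' Metric.closedBall (0 : V) 1, ‖k - a‖ ^ 2 ≤ ‖p - a‖ ^ 2 + α}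

/-- The image of the unit ball is contained in the closed convex hull of its approximately
farthest points. -/
theorem daugavet_aux_far_subset {H : Type*} [NormedAddCommGroup H] [InnerProductSpace ℝ H]
    [CompleteSpace H] (Φ : V →L[ℝ] H) {α : ℝ} (hα : 0 < α) :
    Φ '' Metric.closedBall (0 : V) 1 ⊆ closure (convexHull ℝ (farSet Φ α)) := by
  intro w hw
  by_contra hwn
  obtain ⟨f, s, hf, hs⟩ := geometric_hahn_banach_closed_point
    ((convex_convexHull ℝ (farSet Φ α)).closure) isClosed_closure hwn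
  obtain ⟨ν, hν⟩ : ∃ ν : H, ν = (InnerProductSpace.toDual ℝ H).symm f := ⟨_, rfl⟩
  have hfν : ∀ k : H, f k = inner ℝ ν k := fun k => by
    rw [hν, InnerProductSpace.toDual_symm_apply]
  have hM : ∀ k ∈ Φ '' Metric.closedBall (0 : V) 1, ‖k‖ ≤ ‖Φ‖ := by
    rintro k ⟨u, hu, rfl⟩
    have hu' : ‖u‖ ≤ 1 := by simpa using hu
    calc ‖Φ u‖ ≤ ‖Φ‖ * ‖u‖ := Φ.le_opNorm u
      _ ≤ ‖Φ‖ * 1 := mul_le_mul_of_nonneg_left hu' (norm_nonneg _)
      _ = ‖Φ‖ := mul_one _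
  obtain ⟨g, hg⟩ : ∃ g : ℝ, g = f w - s := ⟨_, rfl⟩
  have hgpos : 0 < g := by rw [hg]; linarith
  obtain ⟨L, hL⟩ : ∃ L : ℝ, L = (‖Φ‖ ^ 2 + α) / (2 * g) + 1 := ⟨_, rfl⟩
  have hLpos : 0 < L := by rw [hL]; positivity
  have h5 : 2 * L * g = ‖Φ‖ ^ 2 + α + 2 * g := by rw [hL]; field_simp
  obtain ⟨a, ha⟩ : ∃ a : H, a = -(L • ν) := ⟨_, rfl⟩
  have hbdd : BddAbove ((fun k => ‖k - a‖ ^ 2) '' (Φ '' Metric.closedBall (0 : V) 1)) := by
    refine ⟨(‖Φ‖ + ‖a‖) ^ 2, ?_⟩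
    rintro _ ⟨k, hk, rfl⟩
    have h1 : ‖k - a‖ ≤ ‖Φ‖ + ‖a‖ := (norm_sub_le _ _).trans (by linarith [hM k hk])
    exact pow_le_pow_left₀ (norm_nonneg _) h1 2
  have hne : ((fun k => ‖k - a‖ ^ 2) '' (Φ '' Metric.closedBall (0 : V) 1)).Nonempty :=
    ⟨_, ⟨w, hw, rfl⟩⟩
  obtain ⟨_, ⟨p, hp, rfl⟩, hpα⟩ := exists_lt_of_lt_csSup hne (sub_lt_self _ hα)
  have hpfar : p ∈ farSet Φ α := ⟨hp, a, fun k hk => by
    have h6 := le_csSup hbdd ⟨k, hk, rfl⟩
    simp only at h6 hpα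
    linarith⟩
  have hfp : f p < s := hf p (subset_closure (subset_convexHull ℝ _ hpfar))
  have hwp : ‖w - a‖ ^ 2 ≤ ‖p - a‖ ^ 2 + α := by
    have h6 := le_csSup hbdd ⟨w, hw, rfl⟩
    simp only at h6 hpα
    linarith
  have hexp : ∀ k : H, ‖k - a‖ ^ 2 = ‖k‖ ^ 2 + 2 * L * f k + L ^ 2 * ‖ν‖ ^ 2 := by
    intro k
    rw [ha, sub_neg_eq_add, norm_add_sq_real, hfν, inner_smul_right, norm_smul, real_inner_comm,
      mul_pow, Real.norm_eq_abs, sq_abs]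
    ring
  rw [hexp w, hexp p] at hwp
  have h2 := hM p hp
  have h3 : ‖p‖ ^ 2 ≤ ‖Φ‖ ^ 2 := pow_le_pow_left₀ (norm_nonneg _) h2 2
  have h4 : 0 ≤ ‖w‖ ^ 2 := sq_nonneg _
  have key : 2 * L * (f w - f p) = 2 * L * g + 2 * (L * (s - f p)) := by rw [hg]; ring
  have h7 : 0 < L * (s - f p) := mul_pos hLpos (sub_pos.mpr hfp)
  nlinarith

/-- Successive choice along a finite family of approximately farthest points. -/
theorem daugavet_aux_far_chain {H : Type*} [NormedAddCommGroup H] [InnerProductSpace ℝ H]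
    (Φ : V →L[ℝ] H) {α ε : ℝ} (hα : 0 < α) (hε : 0 < ε)
    (slice : ∀ (φ : V →L[ℝ] ℝ) (β : ℝ), (∃ u₀ : V, ‖u₀‖ ≤ 1 ∧ β < φ u₀) → ∀ (y : V) (lam : ℝ),
      0 < lam → ∃ u : V, ‖u‖ ≤ 1 ∧ β < φ u ∧ ‖y‖ + lam - ε ≤ ‖y + lam • u‖)
    {ι : Type*} (t : Finset ι) (w : ι → ℝ) (p : ι → H)
    (hw : ∀ i ∈ t, 0 ≤ w i) (hp : ∀ i ∈ t, p i ∈ farSet Φ α) (v : V) :
    ∃ u : V, ‖u‖ ≤ ∑ i ∈ t, w i ∧
      ‖Φ u - ∑ i ∈ t, w i • p i‖ ≤ Real.sqrt (3 * α) * ∑ i ∈ t, w i ∧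
      ‖v‖ + ∑ i ∈ t, w i - ε * t.card ≤ ‖v + u‖ := by
  classical
  induction t using Finset.induction_on generalizing v with
  | empty => exact ⟨0, by simp, by simp, by simp⟩
  | insert i t hi ih =>
    have hwi : 0 ≤ w i := hw i (Finset.mem_insert_self i t)
    have hwt : ∀ j ∈ t, 0 ≤ w j := fun j hj => hw j (Finset.mem_insert_of_mem hj)
    have hpt : ∀ j ∈ t, p j ∈ farSet Φ α := fun j hj => hp j (Finset.mem_insert_of_mem hj)
    rw [Finset.sum_insert hi, Finset.sum_insert hi, Finset.card_insert_of_notMem hi]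
    push_cast
    rcases hwi.eq_or_lt with hzero | hpos
    · obtain ⟨u, hu1, hu2, hu3⟩ := ih hwt hpt v
      refine ⟨u, ?_, ?_, ?_⟩
      · rw [← hzero, zero_add]; exact hu1
      · rw [← hzero, zero_smul, zero_add, zero_add]; exact hu2
      · rw [← hzero, zero_add]; nlinarith
    · obtain ⟨⟨u₀, hu₀, hu₀p⟩, a, ha⟩ := hp i (Finset.mem_insert_self i t)
      have hu₀' : ‖u₀‖ ≤ 1 := by simpa using hu₀
      obtain ⟨ψ, hψ⟩ : ∃ ψ : V →L[ℝ] ℝ, ψ = (innerSL ℝ (p i - a)).comp Φ := ⟨_, rfl⟩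
      have hψapp : ∀ z : V, ψ z = inner ℝ (p i - a) (Φ z) := fun z => by
        rw [hψ]; rfl
      obtain ⟨y, hy1, hy2, hy3⟩ := slice ψ (ψ u₀ - α) ⟨u₀, hu₀', by linarith⟩ v (w i) hpos
      -- `Φ y` is close to `p i`
      have hclose : ‖Φ y - p i‖ ≤ Real.sqrt (3 * α) := by
        have h1 : ‖Φ y - a‖ ^ 2 ≤ ‖p i - a‖ ^ 2 + α :=
          ha (Φ y) ⟨y, by simpa using hy1, rfl⟩
        have h2 : inner ℝ (p i - a) (p i) - α < inner ℝ (p i - a) (Φ y) := by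
          have := hy2
          rw [hψapp, hψapp, hu₀p] at this
          exact this
        have h3 : ‖Φ y - p i‖ ^ 2 = ‖Φ y - a‖ ^ 2 - 2 * inner ℝ (Φ y - a) (p i - a)
            + ‖p i - a‖ ^ 2 := by
          have h4 : Φ y - p i = (Φ y - a) - (p i - a) := by abel
          rw [h4, norm_sub_sq_real]
        have h5 : inner ℝ (Φ y - a) (p i - a)
            = inner ℝ (p i - a) (Φ y) - inner ℝ (p i - a) a := by
          rw [real_inner_comm, inner_sub_right]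
        have h6 : ‖p i - a‖ ^ 2 = inner ℝ (p i - a) (p i) - inner ℝ (p i - a) a := by
          rw [← real_inner_self_eq_norm_sq, ← inner_sub_right]
        have h7 : ‖Φ y - p i‖ ^ 2 ≤ 3 * α := by
          rw [h3, h5]
          linarith
        exact Real.le_sqrt_of_sq_le h7
      obtain ⟨u', hu1, hu2, hu3⟩ := ih hwt hpt (v + w i • y)
      refine ⟨w i • y + u', ?_, ?_, ?_⟩
      · calc ‖w i • y + u'‖ ≤ ‖w i • y‖ + ‖u'‖ := norm_add_le _ _
          _ ≤ w i + ∑ j ∈ t, w j := by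
            rw [norm_smul, Real.norm_eq_abs, abs_of_pos hpos]
            have : w i * ‖y‖ ≤ w i * 1 := mul_le_mul_of_nonneg_left hy1 hpos.le
            linarith
      · have h8 : Φ (w i • y + u') - (w i • p i + ∑ j ∈ t, w j • p j)
            = w i • (Φ y - p i) + (Φ u' - ∑ j ∈ t, w j • p j) := by
          rw [map_add, map_smul, smul_sub]; abel
        rw [h8]
        calc ‖w i • (Φ y - p i) + (Φ u' - ∑ j ∈ t, w j • p j)‖
            ≤ ‖w i • (Φ y - p i)‖ + ‖Φ u' - ∑ j ∈ t, w j • p j‖ := norm_add_le _ _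
          _ ≤ w i * Real.sqrt (3 * α) + Real.sqrt (3 * α) * ∑ j ∈ t, w j := by
            rw [norm_smul, Real.norm_eq_abs, abs_of_pos hpos]
            have : w i * ‖Φ y - p i‖ ≤ w i * Real.sqrt (3 * α) :=
              mul_le_mul_of_nonneg_left hclose hpos.le
            linarith
          _ = Real.sqrt (3 * α) * (w i + ∑ j ∈ t, w j) := by ring
      · have h9 : v + (w i • y + u') = (v + w i • y) + u' := by abel
        rw [h9]
        linarith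

/-- Far points for a continuous linear map into a Hilbert space. -/
theorem daugavet_aux_far {H : Type*} [NormedAddCommGroup H] [InnerProductSpace ℝ H]
    [CompleteSpace H]
    (slice : ∀ ε : ℝ, 0 < ε → ∀ (φ : V →L[ℝ] ℝ) (β : ℝ), (∃ u₀ : V, ‖u₀‖ ≤ 1 ∧ β < φ u₀) →
      ∀ (y : V) (lam : ℝ), 0 < lam →
        ∃ u : V, ‖u‖ ≤ 1 ∧ β < φ u ∧ ‖y‖ + lam - ε ≤ ‖y + lam • u‖)
    (Φ : V →L[ℝ] H) (x : V) (hx : ‖x‖ = 1) {δ : ℝ} (hδ : 0 < δ) :
    ∃ z : V, ‖z‖ ≤ 1 ∧ 2 - δ ≤ ‖z - x‖ ∧ ‖Φ z - Φ x‖ < δ := by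
  obtain ⟨α, hα⟩ : ∃ α : ℝ, α = δ ^ 2 / 16 := ⟨_, rfl⟩
  have hαpos : 0 < α := by rw [hα]; positivity
  have hxB : Φ x ∈ Φ '' Metric.closedBall (0 : V) 1 := ⟨x, by simp [hx], rfl⟩
  have hcl := daugavet_aux_far_subset Φ hαpos hxB
  rw [Metric.mem_closure_iff] at hcl
  obtain ⟨c, hc, hdist⟩ := hcl (δ / 2) (half_pos hδ)
  rw [convexHull_eq] at hc
  obtain ⟨ι, t, w, p, hw0, hw1, hp, hcm⟩ := hc
  rw [Finset.centerMass_eq_of_sum_1 _ _ hw1] at hcm
  obtain ⟨ε, hε⟩ : ∃ ε : ℝ, ε = δ / (t.card + 1) := ⟨_, rfl⟩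
  have hεpos : 0 < ε := by rw [hε]; positivity
  obtain ⟨u, hu1, hu2, hu3⟩ :=
    daugavet_aux_far_chain Φ hαpos hεpos (slice ε hεpos) t w p hw0 hp (-x)
  rw [hw1] at hu1 hu2 hu3
  refine ⟨u, hu1, ?_, ?_⟩
  · have h1 : u - x = -x + u := by abel
    rw [h1]
    rw [norm_neg, hx] at hu3
    have h2 : ε * t.card ≤ δ := by
      rw [hε, div_mul_eq_mul_div, div_le_iff₀ (by positivity)]
      nlinarith [Nat.cast_nonneg (α := ℝ) t.card]
    linarith
  · have hsq : Real.sqrt (3 * α) < δ / 2 := by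
      rw [Real.sqrt_lt' (half_pos hδ), hα]
      nlinarith
    rw [hcm, mul_one] at hu2
    rw [dist_eq_norm] at hdist
    calc ‖Φ u - Φ x‖ = ‖(Φ u - c) - (Φ x - c)‖ := by rw [sub_sub_sub_cancel_right]
      _ ≤ ‖Φ u - c‖ + ‖Φ x - c‖ := norm_sub_le _ _
      _ < δ / 2 + δ / 2 := by linarith
      _ = δ := by ring

end Crest.Agent.S0167Lib
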