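import Crest.Agent.AsyLib.Basic
import Crest.Agent.S0167Lib.DaugavetAux
import Crest.Prelude.Def_DaugavetL1

/-!
The Daugavet property (rank-one form) and closed finite-codimensional subspaces: far points of the
unit ball in prescribed finite-codimensional directions.
-/

set_option autoImplicit false

namespace Crest.Agent.S0167Lib

open Crest.AnalysisR Crest.AnalysisR.L1Subspace Crest.Agent.AsyLib

variable {V : Type*} [NormedAddCommGroup V] [NormedSpace ℝ V]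

/-- Slice lemma: in a space with the Daugavet property, every nonempty slice
`{u : ‖u‖ ≤ 1, α < φ u}` of the unit ball contains, for every `y`, `0 < lam ≤ 1` and `ε > 0`, a
point `u` with `‖y + lam • u‖ ≥ ‖y‖ + lam - ε`. -/
theorem daugavet_slice (hD : HasDaugavetProperty V) (φ : V →L[ℝ] ℝ) (α : ℝ)
    (hne : ∃ u₀ : V, ‖u₀‖ ≤ 1 ∧ α < φ u₀) (y : V) {lam ε : ℝ} (hlam : 0 < lam)
    (hε : 0 < ε) : ∃ u : V, ‖u‖ ≤ 1 ∧ α < φ u ∧ ‖y‖ + lam - ε ≤ ‖y + lam • u‖ := by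
  obtain ⟨u₀, hu₀, hαu₀⟩ := hne
  have hαφ : α < ‖φ‖ := by
    have h1 := φ.le_opNorm u₀
    rw [Real.norm_eq_abs] at h1
    have h2 : ‖φ‖ * ‖u₀‖ ≤ ‖φ‖ * 1 := mul_le_mul_of_nonneg_left hu₀ (norm_nonneg _)
    linarith [le_abs_self (φ u₀)]
  -- a unit vector `x₀` with `y = ‖y‖ • x₀`
  obtain ⟨x₀, hx₀, hyx₀⟩ : ∃ x₀ : V, ‖x₀‖ = 1 ∧ y = ‖y‖ • x₀ := by
    by_cases hy : y = 0
    · obtain ⟨x₀, hx₀⟩ := daugavet_aux_exists_unit hD
      exact ⟨x₀, hx₀, by rw [hy, norm_zero, zero_smul]⟩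
    · have hy' : ‖y‖ ≠ 0 := norm_ne_zero_iff.mpr hy
      refine ⟨(‖y‖)⁻¹ • y, ?_, ?_⟩
      · rw [norm_smul, norm_inv, norm_norm, inv_mul_cancel₀ hy']
      · rw [smul_smul, mul_inv_cancel₀ hy', one_smul]
  obtain ⟨a, ha⟩ : ∃ a : ℝ, a = ‖y‖ := ⟨_, rfl⟩
  have ha0 : 0 ≤ a := by rw [ha]; exact norm_nonneg _
  rw [← ha] at hyx₀ ⊢
  obtain ⟨ε₁, hε₁⟩ : ∃ ε₁ : ℝ, ε₁ = min (‖φ‖ - α) (ε / (a + lam + 1)) := ⟨_, rfl⟩
  have hε₁pos : 0 < ε₁ := by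
    rw [hε₁]; exact lt_min (by linarith) (div_pos hε (by linarith))
  have hε₁a : ε₁ ≤ ‖φ‖ - α := by rw [hε₁]; exact min_le_left _ _
  have hε₁b : ε₁ * (a + lam + 1) ≤ ε := by
    have h1 : ε₁ ≤ ε / (a + lam + 1) := by rw [hε₁]; exact min_le_right _ _
    rwa [le_div_iff₀ (by linarith)] at h1
  obtain ⟨u, hu1, hu2, hu3⟩ := daugavet_aux_slice hD φ x₀ hx₀ hε₁pos
  refine ⟨u, hu1, by linarith, ?_⟩
  rw [hyx₀]
  rcases le_total lam a with hla | hla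
  · -- `a • x₀ + lam • u = a • (x₀ + u) - (a - lam) • u`
    have h1 : a • x₀ + lam • u = a • (x₀ + u) - (a - lam) • u := by
      rw [smul_add, sub_smul]; abel
    have h2 : ‖a • (x₀ + u)‖ ≤ ‖a • x₀ + lam • u‖ + ‖(a - lam) • u‖ := by
      have h3 : a • (x₀ + u) = (a • x₀ + lam • u) + (a - lam) • u := by rw [h1]; abel
      rw [h3]; exact norm_add_le _ _
    rw [norm_smul, norm_smul, Real.norm_eq_abs, Real.norm_eq_abs, abs_of_nonneg ha0,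
      abs_of_nonneg (by linarith)] at h2
    have h4 : (a - lam) * ‖u‖ ≤ (a - lam) * 1 := mul_le_mul_of_nonneg_left hu1 (by linarith)
    have h5 : a * (2 - ε₁) ≤ a * ‖x₀ + u‖ := mul_le_mul_of_nonneg_left hu3.le ha0
    nlinarith
  · -- `a • x₀ + lam • u = lam • (x₀ + u) - (lam - a) • x₀`
    have h1 : a • x₀ + lam • u = lam • (x₀ + u) - (lam - a) • x₀ := by
      rw [smul_add, sub_smul]; abel
    have h2 : ‖lam • (x₀ + u)‖ ≤ ‖a • x₀ + lam • u‖ + ‖(lam - a) • x₀‖ := by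
      have h3 : lam • (x₀ + u) = (a • x₀ + lam • u) + (lam - a) • x₀ := by rw [h1]; abel
      rw [h3]; exact norm_add_le _ _
    rw [norm_smul, norm_smul, Real.norm_eq_abs, Real.norm_eq_abs, abs_of_pos hlam,
      abs_of_nonneg (by linarith), hx₀, mul_one] at h2
    have h5 : lam * (2 - ε₁) ≤ lam * ‖x₀ + u‖ := mul_le_mul_of_nonneg_left hu3.le hlam.le
    nlinarith

/-- Far points: for a unit vector `x`, a closed finite-codimensional `F` and `δ > 0` there is `z`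
in the unit ball with `z - x` within `δ` of `F` and `‖z - x‖ ≥ 2 - δ`. -/
theorem daugavet_far (hD : HasDaugavetProperty V) (x : V) (hx : ‖x‖ = 1) {F : Set V}
    (hF : IsCofT F) {δ : ℝ} (hδ : 0 < δ) :
    ∃ z y' : V, ‖z‖ ≤ 1 ∧ y' ∈ F ∧ ‖z - x - y'‖ ≤ δ ∧ 2 - δ ≤ ‖z - x‖ := by
  obtain ⟨S, rfl, hcl, hfd⟩ := hF
  have : IsClosed (S : Set V) := hcl
  have : FiniteDimensional ℝ (V ⧸ S) := hfd
  obtain ⟨e, he⟩ : ∃ e : (V ⧸ S) ≃L[ℝ] EuclideanSpace ℝ (Fin (Module.finrank ℝ (V ⧸ S))),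
      e = toEuclidean := ⟨_, rfl⟩
  obtain ⟨Φ, hΦ⟩ : ∃ Φ : V →L[ℝ] EuclideanSpace ℝ (Fin (Module.finrank ℝ (V ⧸ S))),
      Φ = e.toContinuousLinearMap.comp S.mkQL := ⟨_, rfl⟩
  obtain ⟨C, hCpos, hCb⟩ := e.symm.toContinuousLinearMap.bound
  have hC0 : 0 ≤ C := hCpos.le
  have hmk : ∀ v : V, ‖(Submodule.Quotient.mk v : V ⧸ S)‖ ≤ C * ‖Φ v‖ := by
    intro v
    have h1 : (Submodule.Quotient.mk v : V ⧸ S) = e.symm.toContinuousLinearMap (Φ v) := by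
      rw [hΦ]
      simp
    rw [h1]
    exact hCb _
  obtain ⟨δ₁, hδ₁⟩ : ∃ δ₁ : ℝ, δ₁ = min δ (δ / (2 * (C + 1))) := ⟨_, rfl⟩
  have hδ₁pos : 0 < δ₁ := by
    rw [hδ₁]; exact lt_min hδ (div_pos hδ (by linarith))
  have hδ₁a : δ₁ ≤ δ := by rw [hδ₁]; exact min_le_left _ _
  have hδ₁b : C * δ₁ ≤ δ / 2 := by
    have h1 : δ₁ ≤ δ / (2 * (C + 1)) := by rw [hδ₁]; exact min_le_right _ _
    rw [le_div_iff₀ (by linarith)] at h1
    nlinarith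
  obtain ⟨z, hz1, hz2, hz3⟩ := daugavet_aux_far
    (fun ε hε φ β hne y lam hlam => daugavet_slice hD φ β hne y hlam hε) Φ x hx hδ₁pos
  have hnorm : ‖(Submodule.Quotient.mk (z - x) : V ⧸ S)‖ ≤ δ / 2 := by
    have h1 := hmk (z - x)
    rw [map_sub] at h1
    have h2 : C * ‖Φ z - Φ x‖ ≤ C * δ₁ := mul_le_mul_of_nonneg_left hz3.le hC0
    linarith
  obtain ⟨m, hm1, hm2⟩ := Submodule.Quotient.norm_mk_lt
    (Submodule.Quotient.mk (z - x) : V ⧸ S) (half_pos hδ)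
  have hmem : z - x - m ∈ S := by
    rw [← Submodule.Quotient.eq]
    exact hm1.symm
  refine ⟨z, z - x - m, hz1, hmem, ?_, by linarith⟩
  have h3 : z - x - (z - x - m) = m := by abel
  rw [h3]
  linarith

end Crest.Agent.S0167Lib
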